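import Vale.Agent.P171.Final
import Vale.Agent.P171.Convert

open Vale.Agent.P171

namespace Vale.Agent.Results.P171.PhaseTransition

theorem result : ∃ φ : ℝ → ℝ, IsPairPotential φ ∧ Stable φ ∧ Tempered φ ∧
    ∃ β : ℝ, 0 < β ∧ ∃ P : ℝ → ℝ, IsPressure φ β P ∧
      ∃ z : ℝ, 0 < z ∧ ¬ DifferentiableAt ℝ P z := by
  obtain ⟨t, μ, ht, hnd⟩ := exists_not_differentiable
  refine ⟨phi t, isPairPotential_phi ht, stable_phi ht, tempered_phi ht, 1, one_pos,
    fun z => pres t (Real.log z), isPressure_phi ht, Real.exp μ, Real.exp_pos μ, fun hd => hnd ?_⟩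
  have h := hd.comp μ Real.differentiableAt_exp
  simpa [Function.comp_def, Real.log_exp] using h

end Vale.Agent.Results.P171.PhaseTransition
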