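import Vale.Agent.P171.Final
import Vale.Agent.P171.Regular

open MeasureTheory Vale.Agent.P171

namespace Vale.Agent.Results.P171.RegularTransition

/-- Regularity in the sense of Ruelle: the Mayer function `exp(-β φ(|x|)) - 1` is integrable
over `ℝ³` for every `β > 0`. -/
def Regular (φ : ℝ → ℝ) : Prop :=
  ∀ β : ℝ, 0 < β → Integrable fun x : R3 => Real.exp (-β * φ ‖x‖) - 1

theorem result : ∃ φ : ℝ → ℝ, IsPairPotential φ ∧ Stable φ ∧ Tempered φ ∧ Regular φ ∧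
    (∃ B : ℝ, ∀ r : ℝ, -B ≤ φ r) ∧
    (∃ C : ℝ, ∀ r : ℝ, 1 ≤ r → -(C * (r ^ 3)⁻¹) ≤ φ r ∧ φ r ≤ 0) ∧
    ∃ β : ℝ, 0 < β ∧ ∃ P : ℝ → ℝ, IsPressure φ β P ∧
      ∃ z : ℝ, 0 < z ∧ ¬ DifferentiableAt ℝ P z := by
  obtain ⟨t, μ, ht, hnd⟩ := exists_not_differentiable
  refine ⟨phi t, isPairPotential_phi ht, stable_phi ht, tempered_phi ht,
    fun β hβ => regular_phi ht hβ, ⟨∑' k, t k, neg_le_phi ht⟩, ⟨∑' k, t k, fun r hr =>
    phi_tail ht hr⟩, 1, one_pos,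
    fun z => pres t (Real.log z), isPressure_phi ht, Real.exp μ, Real.exp_pos μ, fun hd => hnd ?_⟩
  have h := hd.comp μ Real.differentiableAt_exp
  simpa [Function.comp_def, Real.log_exp] using h

end Vale.Agent.Results.P171.RegularTransition
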